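import Vale.Agent.P181.R2.H553.Defs

/-!
Rows 1 and 2 of P181.ThreeRowBulk: highest weight vectors of `Sym^d(Sym^a ℂ^3)` as functions of
finitely supported measures.
-/

set_option autoImplicit false

open scoped TensorProduct
open MvPolynomial

namespace Vale.Agent.P181.H553

open Vale.Agent.P181 Vale.Agent.P181.H280 Vale.Agent.P181.H179

namespace W644

lemma lin_apply (p : Pt) (v : Fin 3 → ℂ) : lin p v = ∑ i, p i * v i := by
  rw [lin, _root_.LinearMap.sum_apply]
  rfl

lemma lin_single (p : Pt) (k : Fin 3) : lin p (Pi.single k 1) = p k := by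
  rw [lin_apply, Finset.sum_eq_single k]
  · rw [Pi.single_eq_same, mul_one]
  · intro i _ hi
    rw [Pi.single_eq_of_ne hi, mul_zero]
  · intro h
    exact absurd (Finset.mem_univ k) h

lemma lin_surj (φ : Module.Dual ℂ (Fin 3 → ℂ)) : lin (fun i => φ (Pi.single i 1)) = φ := by
  apply LinearMap.pi_ext'
  intro i
  apply LinearMap.ext_ring
  rw [LinearMap.comp_apply, LinearMap.comp_apply, LinearMap.single_apply, lin_single]

lemma lin_toLin (p : Pt) (g : Matrix (Fin 3) (Fin 3) ℂ) :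
    lin p ∘ₗ Matrix.toLin' g = lin (Matrix.vecMul p g) := by
  apply LinearMap.ext
  intro v
  rw [LinearMap.comp_apply, Matrix.toLin'_apply, lin_apply, lin_apply]
  exact Matrix.dotProduct_mulVec p g v

lemma ev_map (a : ℕ) (c : Meas) (T : Pt → Pt) :
    ev a (Finsupp.mapDomain T c) = ∑ p ∈ c.support, c p • evalPow a (lin (T p)) := by
  have h := Finsupp.sum_mapDomain_index (f := T) (s := c)
    (h := fun p r => r • evalPow a (lin p)) (fun _ => zero_smul _ _) (fun _ r s => add_smul r s _)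
  exact h

lemma ev_eq (a : ℕ) (c : Meas) : ev a c = ∑ p ∈ c.support, c p • evalPow a (lin p) := rfl

lemma ev_add (a : ℕ) (c c' : Meas) : ev a (c + c') = ev a c + ev a c' :=
  Finsupp.sum_add_index' (fun _ => zero_smul _ _) (fun _ r s => add_smul r s _)

lemma ev_smul (a : ℕ) (t : ℂ) (c : Meas) : ev a (t • c) = t • ev a c := by
  have h := Finsupp.sum_smul_index (g := c) (b := t)
    (h := fun p r => r • evalPow a (lin p)) (fun _ => zero_smul _ _)
  rw [ev, h, ev, Finsupp.sum, Finsupp.sum, Finset.smul_sum]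
  apply Finset.sum_congr rfl
  intro p _
  rw [smul_smul]

lemma ev_comp (a : ℕ) (c : Meas) (g : Matrix (Fin 3) (Fin 3) ℂ) :
    ev a c ∘ₗ symMap a (Matrix.toLin' g) =
      ev a (Finsupp.mapDomain (fun p => Matrix.vecMul p g) c) := by
  apply LinearMap.ext
  intro y
  rw [LinearMap.comp_apply, ev_map, ev_eq, _root_.LinearMap.sum_apply, _root_.LinearMap.sum_apply]
  apply Finset.sum_congr rfl
  intro p _
  rw [LinearMap.smul_apply, LinearMap.smul_apply, ← lin_toLin, ← evalPow_symMap,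
    LinearMap.comp_apply]

lemma ev_surj (a : ℕ) (ψ : Module.Dual ℂ (Sym[ℂ]^a (Fin 3 → ℂ))) : ∃ c : Meas, ev a c = ψ := by
  have hS : Submodule.span ℂ (Set.range (fun p : Pt => evalPow a (lin p))) =
      (⊤ : Submodule ℂ (Module.Dual ℂ (Sym[ℂ]^a (Fin 3 → ℂ)))) := by
    apply span_eq_top_of_separates
    intro y hy
    apply eq_zero_of_evalPow
    intro ξ
    rw [← lin_surj ξ]
    exact hy _ ⟨_, rfl⟩
  have h1 : ψ ∈ Submodule.span ℂ (Set.range (fun p : Pt => evalPow a (lin p))) := by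
    rw [hS]
    trivial
  rw [Finsupp.mem_span_range_iff_exists_finsupp] at h1
  obtain ⟨c, hc⟩ := h1
  exact ⟨c, hc⟩

lemma monomial_elt {a : ℕ} (β : Fin 3 → ℕ) (hd : ∑ k, β k = a) :
    ∃ e : Sym[ℂ]^a (Fin 3 → ℂ), ∀ p : Pt, evalPow a (lin p) e = ∏ k, p k ^ β k := by
  classical
  have hcard : Fintype.card (Σ k : Fin 3, Fin (β k)) = a := by
    rw [Fintype.card_sigma]
    simp only [Fintype.card_fin]
    exact hd
  let s : (Σ k : Fin 3, Fin (β k)) ≃ Fin a := Fintype.equivFinOfCardEq hcard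
  refine ⟨SymmetricPower.tprod ℂ (fun i => Pi.single (s.symm i).1 1), fun p => ?_⟩
  rw [evalPow_tprod]
  have h1 : ∀ i : Fin a, lin p (Pi.single (s.symm i).1 1) = p (s.symm i).1 := fun i =>
    lin_single p _
  rw [Finset.prod_congr rfl (fun i _ => h1 i),
    Equiv.prod_comp s.symm (fun t : (Σ k : Fin 3, Fin (β k)) => p t.1), Fintype.prod_sigma]
  apply Finset.prod_congr rfl
  intro k _
  change ∏ _y : Fin (β k), p k = p k ^ β k
  rw [Finset.prod_const, Finset.card_univ, Fintype.card_fin]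

lemma line_poly {W : Type} [AddCommGroup W] [Module ℂ W] {b : ℕ} (x : Sym[ℂ]^b W)
    (φ ψ : Module.Dual ℂ W) :
    ∃ q : Polynomial ℂ, ∀ t : ℂ, evalPow b (φ + t • ψ) x = q.eval t := by
  have hx : x ∈ Submodule.span ℂ (Set.range (SymmetricPower.tprod ℂ (ι := Fin b) (M := W))) := by
    rw [SymmetricPower.span_tprod_eq_top]
    trivial
  induction hx using Submodule.span_induction with
  | mem z hz =>
    obtain ⟨v, rfl⟩ := hz
    refine ⟨∏ i, (Polynomial.C (φ (v i)) + Polynomial.X * Polynomial.C (ψ (v i))), ?_⟩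
    intro t
    rw [evalPow_tprod, Polynomial.eval_prod]
    apply Finset.prod_congr rfl
    intro i _
    rw [Polynomial.eval_add, Polynomial.eval_mul, Polynomial.eval_C, Polynomial.eval_X,
      Polynomial.eval_C, LinearMap.add_apply, LinearMap.smul_apply, smul_eq_mul]
  | zero =>
    refine ⟨0, fun t => ?_⟩
    rw [Polynomial.eval_zero, map_zero]
  | add z z' _ _ h h' =>
    obtain ⟨q, hq⟩ := h
    obtain ⟨q', hq'⟩ := h'
    refine ⟨q + q', fun t => ?_⟩
    rw [Polynomial.eval_add, map_add, hq, hq']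
  | smul c z _ h =>
    obtain ⟨q, hq⟩ := h
    refine ⟨Polynomial.C c * q, fun t => ?_⟩
    rw [Polynomial.eval_mul, Polynomial.eval_C, map_smul, hq, smul_eq_mul]

lemma exists_mulPure {W : Type} [AddCommGroup W] [Module ℂ W] (b : ℕ) :
    ∀ {B : ℕ} (w : Fin B → W), ∃ L : (Sym[ℂ]^b W) →ₗ[ℂ] (Sym[ℂ]^(b + B) W),
      ∀ (φ : Module.Dual ℂ W) (x : Sym[ℂ]^b W),
        evalPow (b + B) φ (L x) = evalPow b φ x * ∏ i, φ (w i) := by
  intro B
  induction B with
  | zero =>
    intro w
    refine ⟨LinearMap.id, fun φ x => ?_⟩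
    rw [Finset.univ_eq_empty, Finset.prod_empty, mul_one]
    rfl
  | succ B ih =>
    intro w
    obtain ⟨L, hL⟩ := ih (fun i => w i.castSucc)
    refine ⟨mulBy (b + B) (w (Fin.last B)) ∘ₗ L, fun φ x => ?_⟩
    have h1 : evalPow (b + B + 1) φ (mulBy (b + B) (w (Fin.last B)) (L x)) =
        φ (w (Fin.last B)) * evalPow (b + B) φ (L x) := evalPow_mulBy _ _ _ _
    rw [LinearMap.comp_apply, Fin.prod_univ_castSucc]
    refine h1.trans ?_
    rw [hL]
    ring

lemma exists_mul {W : Type} [AddCommGroup W] [Module ℂ W] (b : ℕ) {B : ℕ} (y : Sym[ℂ]^B W) :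
    ∃ L : (Sym[ℂ]^b W) →ₗ[ℂ] (Sym[ℂ]^(b + B) W), ∀ (φ : Module.Dual ℂ W) (x : Sym[ℂ]^b W),
      evalPow (b + B) φ (L x) = evalPow b φ x * evalPow B φ y := by
  have hy : y ∈ Submodule.span ℂ (Set.range (SymmetricPower.tprod ℂ (ι := Fin B) (M := W))) := by
    rw [SymmetricPower.span_tprod_eq_top]
    trivial
  induction hy using Submodule.span_induction with
  | mem z hz =>
    obtain ⟨w, rfl⟩ := hz
    obtain ⟨L, hL⟩ := exists_mulPure b w
    refine ⟨L, fun φ x => ?_⟩
    rw [hL, evalPow_tprod]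
  | zero =>
    refine ⟨0, fun φ x => ?_⟩
    rw [LinearMap.zero_apply, map_zero, map_zero, mul_zero]
  | add z z' _ _ h h' =>
    obtain ⟨L, hL⟩ := h
    obtain ⟨L', hL'⟩ := h'
    refine ⟨L + L', fun φ x => ?_⟩
    rw [LinearMap.add_apply, map_add, hL, hL', map_add, mul_add]
  | smul c z _ h =>
    obtain ⟨L, hL⟩ := h
    refine ⟨c • L, fun φ x => ?_⟩
    rw [LinearMap.smul_apply, map_smul, hL, map_smul, smul_eq_mul, smul_eq_mul]
    ring

end W644

/-- ROW 1a. A vector with the right function is a highest weight vector. -/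
theorem mem_hwSpace_of {a d : ℕ} {lam : Fin 3 → ℕ} (x : Pleth d a 3)
    (h : ∀ g : Matrix (Fin 3) (Fin 3) ℂ, IsBorel g → ∀ c : Meas,
      evalPow d (ev a (Finsupp.mapDomain (fun p => Matrix.vecMul p g) c)) x =
        (∏ i, g i i ^ lam i) * evalPow d (ev a c) x) :
    x ∈ hwSpace lam (plethAct d a 3) := by
  intro g hg
  let y : Sym[ℂ]^d (Sym[ℂ]^a (Fin 3 → ℂ)) := x
  have h1 : symMap d (symMap a (Matrix.toLin' g)) y - (∏ i, g i i ^ lam i) • y = 0 := by
    apply eq_zero_of_evalPow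
    intro ξ
    obtain ⟨c, rfl⟩ := W644.ev_surj a ξ
    have h2 : evalPow d (ev a c) (symMap d (symMap a (Matrix.toLin' g)) y) =
        evalPow d (ev a c ∘ₗ symMap a (Matrix.toLin' g)) y :=
      LinearMap.congr_fun (evalPow_symMap (b := d) (symMap a (Matrix.toLin' g)) (ev a c)) y
    rw [map_sub, map_smul, h2, W644.ev_comp, smul_eq_mul, sub_eq_zero]
    exact h g hg c
  have h3 : symMap d (symMap a (Matrix.toLin' g)) y = (∏ i, g i i ^ lam i) • y :=
    sub_eq_zero.1 h1
  exact h3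

/-- ROW 1b. Linearly independent functions give a lower bound of the multiplicity. -/
theorem card_le {a d : ℕ} {lam : Fin 3 → ℕ} {ι : Type} [Fintype ι] (f : ι → Meas → ℂ)
    (hf : ∀ i, HWF a d lam (f i)) (hind : LinearIndependent ℂ f) :
    Fintype.card ι ≤ plethMult d a 3 lam := by
  choose x hx hxf using hf
  have _inst : Module.Finite ℂ (Pleth d a 3) :=
    inferInstanceAs (Module.Finite ℂ (Sym[ℂ]^d (Sym[ℂ]^a (Fin 3 → ℂ))))
  have h1 := finrank_le_of_inj (M := ι → ℂ) (N := Pleth d a 3) (Fintype.linearCombination ℂ x) ⊤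
    (hwSpace lam (plethAct d a 3)) (fun u _ => by
      rw [Fintype.linearCombination_apply]
      exact Submodule.sum_mem _ (fun i _ => Submodule.smul_mem _ _ (hx i))) (fun u _ h0 => by
      rw [Fintype.linearCombination_apply] at h0
      funext i
      refine Fintype.linearIndependent_iff.1 hind u ?_ i
      funext c
      let F : Pleth d a 3 →ₗ[ℂ] ℂ := evalPow d (ev a c)
      have h2 := congrArg F h0
      rw [Finset.sum_apply]
      have h3 : F (∑ i, u i • x i) = ∑ i, u i * f i c := by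
        rw [map_sum]
        apply Finset.sum_congr rfl
        intro i _
        rw [map_smul, smul_eq_mul]
        exact congrArg (fun t => u i * t) (hxf i c)
      refine Eq.trans ?_ (h3.symm.trans (h2.trans (map_zero _)))
      rfl)
  rw [finrank_top, Module.finrank_fintype_fun_eq_card] at h1
  exact h1

/-- ROW 1c. Products. -/
theorem HWF.mul {a d₁ d₂ : ℕ} {l₁ l₂ : Fin 3 → ℕ} {f₁ f₂ : Meas → ℂ} (h₁ : HWF a d₁ l₁ f₁)
    (h₂ : HWF a d₂ l₂ f₂) : HWF a (d₁ + d₂) (l₁ + l₂) (f₁ * f₂) := by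
  obtain ⟨x, hx, hxf⟩ := h₁
  obtain ⟨y, hy, hyf⟩ := h₂
  let x' : Sym[ℂ]^d₁ (Sym[ℂ]^a (Fin 3 → ℂ)) := x
  let y' : Sym[ℂ]^d₂ (Sym[ℂ]^a (Fin 3 → ℂ)) := y
  obtain ⟨L, hL⟩ := W644.exists_mul d₁ y'
  have hpair : ∀ {d : ℕ} {l : Fin 3 → ℕ} (u : Pleth d a 3), u ∈ hwSpace l (plethAct d a 3) →
      ∀ g : Matrix (Fin 3) (Fin 3) ℂ, IsBorel g → ∀ c : Meas,
      evalPow d (ev a (Finsupp.mapDomain (fun p => Matrix.vecMul p g) c)) u =
        (∏ i, g i i ^ l i) * evalPow d (ev a c) u := by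
    intro d l u hu g hg c
    let u' : Sym[ℂ]^d (Sym[ℂ]^a (Fin 3 → ℂ)) := u
    have h2 : evalPow d (ev a c) (symMap d (symMap a (Matrix.toLin' g)) u') =
        evalPow d (ev a c ∘ₗ symMap a (Matrix.toLin' g)) u' :=
      LinearMap.congr_fun (evalPow_symMap (b := d) (symMap a (Matrix.toLin' g)) (ev a c)) u'
    have h3 : symMap d (symMap a (Matrix.toLin' g)) u' = (∏ i, g i i ^ l i) • u' := hu g hg
    rw [h3, map_smul, W644.ev_comp, smul_eq_mul] at h2
    exact h2.symm
  refine ⟨L x', ?_, ?_⟩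
  · apply mem_hwSpace_of
    intro g hg c
    have h1 := hL (ev a (Finsupp.mapDomain (fun p => Matrix.vecMul p g) c)) x'
    have h2 := hL (ev a c) x'
    have h3 := hpair x hx g hg c
    have h4 := hpair y hy g hg c
    have h5 : ∏ i, g i i ^ (l₁ + l₂) i = (∏ i, g i i ^ l₁ i) * ∏ i, g i i ^ l₂ i := by
      rw [← Finset.prod_mul_distrib]
      apply Finset.prod_congr rfl
      intro i _
      rw [Pi.add_apply, pow_add]
    refine h1.trans ?_
    rw [h5]
    refine Eq.trans ?_ (congrArg (fun t => ((∏ i, g i i ^ l₁ i) * ∏ i, g i i ^ l₂ i) * t) h2.symm)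
    refine (congrArg₂ (fun s t => s * t) h3 h4).trans ?_
    ring
  · intro c
    refine (hL (ev a c) x').trans ?_
    exact congrArg₂ (fun s t => s * t) (hxf c) (hyf c)

/-- ROW 1d. Along a line the function is a polynomial. -/
theorem HWF.line {a d : ℕ} {lam : Fin 3 → ℕ} {f : Meas → ℂ} (h : HWF a d lam f) (c c' : Meas) :
    ∃ P : Polynomial ℂ, ∀ τ : ℂ, f (c + τ • c') = P.eval τ := by
  obtain ⟨x, _, hxf⟩ := h
  obtain ⟨P, hP⟩ := W644.line_poly (W := Sym[ℂ]^a (Fin 3 → ℂ)) x (ev a c) (ev a c')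
  refine ⟨P, fun τ => ?_⟩
  rw [← hP τ, ← hxf, W644.ev_add, W644.ev_smul]

/-- ROW 2 (master). A polynomial in `r` points gives a highest weight vector. -/
theorem hwf_of {a r : ℕ} {lam : Fin 3 → ℕ} (Q : MvPolynomial (Fin r × Fin 3) ℂ)
    (hQ : Multi a r Q) (hS : Semi lam Q) :
    HWF a r lam (fun c => integ c (fun p => eval (fun s : Fin r × Fin 3 => p s.1 s.2) Q)) := by
  classical
  have hE : ∀ (d : Fin r × Fin 3 →₀ ℕ) (l : Fin r), ∃ e : Sym[ℂ]^a (Fin 3 → ℂ),
      coeff d Q ≠ 0 → ∀ p : Pt, evalPow a (lin p) e = ∏ k, p k ^ d (l, k) := by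
    intro d l
    by_cases h : coeff d Q = 0
    · exact ⟨0, fun h' => absurd h h'⟩
    · have h1 := hQ l h
      rw [Finsupp.weight_apply, Finsupp.sum_fintype _ _ (fun i => by simp),
        Fintype.sum_prod_type] at h1
      have h2 : ∑ k, d (l, k) = a := by
        rw [← h1, Finset.sum_eq_single l]
        · apply Finset.sum_congr rfl
          intro k _
          simp
        · intro l' _ hl'
          apply Finset.sum_eq_zero
          intro k _
          simp [hl']
        · intro h3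
          exact absurd (Finset.mem_univ l) h3
      obtain ⟨e, he⟩ := W644.monomial_elt (fun k => d (l, k)) h2
      exact ⟨e, fun _ => he⟩
  choose E hE' using hE
  let x : Sym[ℂ]^r (Sym[ℂ]^a (Fin 3 → ℂ)) :=
    ∑ d ∈ Q.support, coeff d Q • SymmetricPower.tprod ℂ (fun l => E d l)
  have key : ∀ (c : Meas) (T : Pt → Pt), evalPow r (ev a (Finsupp.mapDomain T c)) x =
      ∑ P ∈ Fintype.piFinset (fun _ : Fin r => c.support), (∏ l, c (P l)) *
        eval (fun s : Fin r × Fin 3 => T (P s.1) s.2) Q := by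
    intro c T
    have h1 : ∀ d ∈ Q.support, evalPow r (ev a (Finsupp.mapDomain T c))
        (coeff d Q • SymmetricPower.tprod ℂ (fun l => E d l)) =
        ∑ P ∈ Fintype.piFinset (fun _ : Fin r => c.support), (∏ l, c (P l)) *
          (coeff d Q * ∏ s : Fin r × Fin 3, T (P s.1) s.2 ^ d s) := by
      intro d hd
      have hd' := MvPolynomial.mem_support_iff.1 hd
      rw [map_smul, evalPow_tprod, smul_eq_mul]
      have h2 : ∀ l : Fin r, ev a (Finsupp.mapDomain T c) (E d l) =
          ∑ p ∈ c.support, c p * ∏ k, T p k ^ d (l, k) := by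
        intro l
        rw [W644.ev_map, _root_.LinearMap.sum_apply]
        apply Finset.sum_congr rfl
        intro p _
        rw [LinearMap.smul_apply, smul_eq_mul, hE' d l hd']
      rw [Finset.prod_congr rfl (fun l _ => h2 l), Finset.prod_univ_sum, Finset.mul_sum]
      apply Finset.sum_congr rfl
      intro P _
      rw [Finset.prod_mul_distrib, Fintype.prod_prod_type]
      ring
    simp only [x]
    rw [map_sum, Finset.sum_congr rfl h1, Finset.sum_comm]
    apply Finset.sum_congr rfl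
    intro P _
    rw [← Finset.mul_sum, MvPolynomial.eval_eq']
  have key' : ∀ c : Meas, evalPow r (ev a c) x =
      integ c (fun p => eval (fun s : Fin r × Fin 3 => p s.1 s.2) Q) := by
    intro c
    have h1 := key c id
    rw [Finsupp.mapDomain_id] at h1
    exact h1
  refine ⟨x, ?_, key'⟩
  apply mem_hwSpace_of
  intro g hg c
  refine (key c (fun p => Matrix.vecMul p g)).trans ?_
  refine Eq.trans ?_ (congrArg (fun t => (∏ i, g i i ^ lam i) * t) (key' c).symm)
  rw [integ, Finset.mul_sum]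
  apply Finset.sum_congr rfl
  intro P _
  have h1 := hS g hg P
  have h2 : eval (fun s : Fin r × Fin 3 => Matrix.vecMul (P s.1) g s.2) Q =
      (∏ i, g i i ^ lam i) * eval (fun s : Fin r × Fin 3 => P s.1 s.2) Q := h1
  rw [h2]
  ring

end Vale.Agent.P181.H553
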