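import Vale.Agent.P181.R2.H553.CDefs

set_option autoImplicit false

open scoped TensorProduct
open MvPolynomial

namespace Vale.Agent.P181.H553

open Vale.Agent.P181 Vale.Agent.P181.H280 Vale.Agent.P181.H179

namespace A1

/-! ### Multihomogeneity -/

theorem br_hom {r : ℕ} (i j k l : Fin r) :
    IsWeightedHomogeneous (fun s : Fin r × Fin 3 => if s.1 = l then 1 else 0)
      (br i j k : MvPolynomial (Fin r × Fin 3) ℂ)
      ((if i = l then 1 else 0) + (if j = l then 1 else 0) + (if k = l then 1 else 0)) := by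
  have hX : ∀ (a : Fin r) (x : Fin 3),
      IsWeightedHomogeneous (fun s : Fin r × Fin 3 => if s.1 = l then 1 else 0)
        (X (a, x) : MvPolynomial (Fin r × Fin 3) ℂ) (if a = l then 1 else 0) :=
    fun a x => isWeightedHomogeneous_X ℂ _ (a, x)
  have hT : ∀ x y z : Fin 3,
      IsWeightedHomogeneous (fun s : Fin r × Fin 3 => if s.1 = l then 1 else 0)
        (X (i, x) * X (j, y) * X (k, z) : MvPolynomial (Fin r × Fin 3) ℂ)
        ((if i = l then 1 else 0) + (if j = l then 1 else 0) + (if k = l then 1 else 0)) :=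
    fun x y z => ((hX i x).mul (hX j y)).mul (hX k z)
  unfold br
  rw [Matrix.det_fin_three]
  exact (((((hT 0 1 2).sub (hT 0 2 1)).sub (hT 1 0 2)).add (hT 1 2 0)).add (hT 2 0 1)).sub
    (hT 2 1 0)

theorem sum_perm (τ : Equiv.Perm (Fin 5)) (l : Fin 5) :
    ∑ i : Fin 5, (if τ i = l then 1 else 0 : ℕ) = 1 := by
  have h : ∀ i : Fin 5, (if τ i = l then 1 else 0 : ℕ) = if i = τ.symm l then 1 else 0 := by
    intro i
    by_cases hi : τ i = l
    · rw [if_pos hi, if_pos (by rw [← hi, Equiv.symm_apply_apply])]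
    · rw [if_neg hi, if_neg (fun h => hi (by rw [h, Equiv.apply_symm_apply]))]
  simp [h]

theorem Wp_hom (σ : Equiv.Perm (Fin 5)) (l : Fin 5) :
    IsWeightedHomogeneous (fun s : Fin 5 × Fin 3 => if s.1 = l then 1 else 0) (Wp σ) 3 := by
  have h := IsWeightedHomogeneous.prod (Finset.univ : Finset (Fin 5))
    (fun i => (br (σ i) (σ (i + 1)) (σ (i + 2)) : MvPolynomial (Fin 5 × Fin 3) ℂ))
    (fun i => (if σ i = l then 1 else 0) + (if σ (i + 1) = l then 1 else 0) +
      (if σ (i + 2) = l then 1 else 0)) (fun i _ => br_hom _ _ _ l)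
  have hs : ∑ i : Fin 5, ((if σ i = l then 1 else 0) + (if σ (i + 1) = l then 1 else 0) +
      (if σ (i + 2) = l then 1 else 0) : ℕ) = 3 := by
    rw [Finset.sum_add_distrib, Finset.sum_add_distrib]
    have h0 := sum_perm σ l
    have h1 : ∑ i : Fin 5, (if σ (i + 1) = l then 1 else 0 : ℕ) = 1 :=
      sum_perm ((Equiv.addRight (1 : Fin 5)).trans σ) l
    have h2 : ∑ i : Fin 5, (if σ (i + 2) = l then 1 else 0 : ℕ) = 1 :=
      sum_perm ((Equiv.addRight (2 : Fin 5)).trans σ) l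
    rw [h0, h1, h2]
  rw [hs] at h
  exact h

theorem emb_count (x : Fin 3) (l : Fin 5) :
    ∑ e : Fin 3 ↪ Fin 5, (if e x = l then 1 else 0 : ℕ) = 12 := by
  have hsw : ∀ l' : Fin 5, ∑ e : Fin 3 ↪ Fin 5, (if e x = l' then 1 else 0 : ℕ) =
      ∑ e : Fin 3 ↪ Fin 5, (if e x = l then 1 else 0 : ℕ) := by
    intro l'
    refine Fintype.sum_equiv (Equiv.embeddingCongr (Equiv.refl (Fin 3)) (Equiv.swap l' l)) _ _ ?_
    intro e
    have he : (Equiv.embeddingCongr (Equiv.refl (Fin 3)) (Equiv.swap l' l) e) x =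
        Equiv.swap l' l (e x) := rfl
    rw [he]
    by_cases h : e x = l'
    · rw [if_pos h, if_pos (by rw [h, Equiv.swap_apply_left])]
    · rw [if_neg h, if_neg]
      intro h'
      apply h
      exact (Equiv.swap l' l).injective (h'.trans (Equiv.swap_apply_left l' l).symm)
  have htot : ∑ l' : Fin 5, ∑ e : Fin 3 ↪ Fin 5, (if e x = l' then 1 else 0 : ℕ) = 60 := by
    rw [Finset.sum_comm]
    have h1 : ∀ e : Fin 3 ↪ Fin 5, ∑ l' : Fin 5, (if e x = l' then 1 else 0 : ℕ) = 1 := by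
      intro e
      simp
    simp only [h1, Finset.sum_const, Finset.card_univ, Fintype.card_embedding_eq,
      Fintype.card_fin, smul_eq_mul, mul_one]
    decide
  simp only [hsw, Finset.sum_const, Finset.card_univ, Fintype.card_fin, smul_eq_mul] at htot
  omega

theorem Dp_hom (l : Fin 5) :
    IsWeightedHomogeneous (fun s : Fin 5 × Fin 3 => if s.1 = l then 1 else 0) Dp 36 := by
  have h := IsWeightedHomogeneous.prod (Finset.univ : Finset (Fin 3 ↪ Fin 5))
    (fun e => (br (e 0) (e 1) (e 2) : MvPolynomial (Fin 5 × Fin 3) ℂ))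
    (fun e => (if e 0 = l then 1 else 0) + (if e 1 = l then 1 else 0) +
      (if e 2 = l then 1 else 0)) (fun e _ => br_hom _ _ _ l)
  have hs : ∑ e : Fin 3 ↪ Fin 5, ((if e 0 = l then 1 else 0) + (if e 1 = l then 1 else 0) +
      (if e 2 = l then 1 else 0) : ℕ) = 36 := by
    rw [Finset.sum_add_distrib, Finset.sum_add_distrib, emb_count, emb_count, emb_count]
  rw [hs] at h
  exact h

theorem Gp_hom (l : Fin 5) :
    IsWeightedHomogeneous (fun s : Fin 5 × Fin 3 => if s.1 = l then 1 else 0) Gp 6 :=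
  IsWeightedHomogeneous.sum _ _ _ fun σ _ => (Wp_hom σ l).pow 2

theorem Kp_hom (l : Fin 5) :
    IsWeightedHomogeneous (fun s : Fin 5 × Fin 3 => if s.1 = l then 1 else 0) Kp 18 :=
  IsWeightedHomogeneous.sum _ _ _ fun σ _ => (Wp_hom σ l).pow 6

/-! ### The action of the Borel subgroup -/

theorem semi_br {r : ℕ} (i j k : Fin r) : Semi (fun _ => 1) (br i j k) := by
  intro g hg p
  have h10 : g 1 0 = 0 := hg.1 1 0 (by decide)
  have h20 : g 2 0 = 0 := hg.1 2 0 (by decide)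
  have h21 : g 2 1 = 0 := hg.1 2 1 (by decide)
  unfold br
  simp only [Matrix.det_fin_three, Matrix.of_apply, map_add, map_sub, map_mul, eval_X,
    Matrix.vecMul, dotProduct, Fin.sum_univ_three, Fin.prod_univ_three, h10, h20, h21, pow_one]
  ring

theorem semi_mul {r a b : ℕ} {P Q : MvPolynomial (Fin r × Fin 3) ℂ}
    (hP : Semi (fun _ => a) P) (hQ : Semi (fun _ => b) Q) : Semi (fun _ => a + b) (P * Q) := by
  intro g hg p
  rw [map_mul, map_mul, hP g hg p, hQ g hg p]
  simp only [pow_add, Finset.prod_mul_distrib]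
  ring

theorem semi_one {r : ℕ} : Semi (fun _ => 0) (1 : MvPolynomial (Fin r × Fin 3) ℂ) := by
  intro g hg p
  simp

theorem semi_pow {r a : ℕ} {P : MvPolynomial (Fin r × Fin 3) ℂ}
    (hP : Semi (fun _ => a) P) (n : ℕ) : Semi (fun _ => n * a) (P ^ n) := by
  induction n with
  | zero => simpa using semi_one
  | succ n ih =>
    rw [pow_succ, Nat.succ_mul]
    exact semi_mul ih hP

theorem semi_prod {r a : ℕ} {ι : Type*} (s : Finset ι) (P : ι → MvPolynomial (Fin r × Fin 3) ℂ)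
    (hP : ∀ i ∈ s, Semi (fun _ => a) (P i)) : Semi (fun _ => s.card * a) (∏ i ∈ s, P i) := by
  classical
  induction s using Finset.induction_on with
  | empty => simpa using semi_one
  | insert i s hi ih =>
    rw [Finset.prod_insert hi, Finset.card_insert_of_notMem hi, Nat.succ_mul, Nat.add_comm]
    exact semi_mul (hP i (Finset.mem_insert_self _ _))
      (ih fun j hj => hP j (Finset.mem_insert_of_mem hj))

theorem semi_sum {r : ℕ} {lam : Fin 3 → ℕ} {ι : Type*} (s : Finset ι)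
    (P : ι → MvPolynomial (Fin r × Fin 3) ℂ)
    (hP : ∀ i ∈ s, Semi lam (P i)) : Semi lam (∑ i ∈ s, P i) := by
  intro g hg p
  rw [map_sum, map_sum, Finset.mul_sum]
  exact Finset.sum_congr rfl fun i hi => hP i hi g hg p

theorem semi_Wp (σ : Equiv.Perm (Fin 5)) : Semi (fun _ => 5) (Wp σ) := by
  have h := semi_prod (a := 1) (Finset.univ : Finset (Fin 5))
    (fun i => (br (σ i) (σ (i + 1)) (σ (i + 2)) : MvPolynomial (Fin 5 × Fin 3) ℂ))
    (fun i _ => semi_br _ _ _)
  rw [Finset.card_univ, Fintype.card_fin, mul_one] at h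
  exact h

theorem semi_Gp : Semi (fun _ => 10) Gp :=
  semi_sum _ _ fun σ _ => semi_pow (semi_Wp σ) 2

theorem semi_Kp : Semi (fun _ => 30) Kp :=
  semi_sum _ _ fun σ _ => semi_pow (semi_Wp σ) 6

theorem semi_Dp : Semi (fun _ => 60) Dp := by
  have h := semi_prod (a := 1) (Finset.univ : Finset (Fin 3 ↪ Fin 5))
    (fun e => (br (e 0) (e 1) (e 2) : MvPolynomial (Fin 5 × Fin 3) ℂ))
    (fun e _ => semi_br _ _ _)
  have hc : (Finset.univ : Finset (Fin 3 ↪ Fin 5)).card * 1 = 60 := by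
    rw [Finset.card_univ, Fintype.card_embedding_eq, Fintype.card_fin, Fintype.card_fin]
    decide
  rw [hc] at h
  exact h

end A1

/-- ROW A1. -/
theorem FF_multi {N : ℕ} (t : Fin N × Fin N) : Multi (60 * N) 5 (FF N t) := by
  intro l
  have h := (((A1.Dp_hom l).pow ((t.1 : ℕ) + 1)).mul ((A1.Kp_hom l).pow (t.2 : ℕ))).mul
    ((A1.Gp_hom l).pow (10 * N - 6 * ((t.1 : ℕ) + 1) - 3 * (t.2 : ℕ)))
  have h1 := t.1.isLt
  have h2 := t.2.isLt
  have hd : ((t.1 : ℕ) + 1) • 36 + (t.2 : ℕ) • 18 +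
      (10 * N - 6 * ((t.1 : ℕ) + 1) - 3 * (t.2 : ℕ)) • 6 = 60 * N := by
    simp only [smul_eq_mul]
    omega
  rw [hd] at h
  exact h

/-- ROW A1. -/
theorem FF_semi {N : ℕ} (t : Fin N × Fin N) : Semi (fun _ => 100 * N) (FF N t) := by
  have h := A1.semi_mul (A1.semi_mul (A1.semi_pow A1.semi_Dp ((t.1 : ℕ) + 1))
    (A1.semi_pow A1.semi_Kp (t.2 : ℕ)))
    (A1.semi_pow A1.semi_Gp (10 * N - 6 * ((t.1 : ℕ) + 1) - 3 * (t.2 : ℕ)))
  have h1 := t.1.isLt
  have h2 := t.2.isLt
  have hd : ((t.1 : ℕ) + 1) * 60 + (t.2 : ℕ) * 30 +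
      (10 * N - 6 * ((t.1 : ℕ) + 1) - 3 * (t.2 : ℕ)) * 10 = 100 * N := by
    omega
  rw [hd] at h
  exact h

end Vale.Agent.P181.H553
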