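import Vale.Agent.P181.R2.H959.FDefs

/-!
Row R2 of P181.FewRowsInterior: a symmetric polynomial function of `B` points, homogeneous of
degree `a` in each point and of weight `lam` under the Borel group, is realized by a highest
weight vector of `Sym^B(Sym^a ℂ^m)`.
-/

set_option autoImplicit false

open scoped TensorProduct

namespace Vale.Agent.P181.FR

open Vale.Agent.P181 Vale.Agent.P181.H280 Vale.Agent.P181.H54 MvPolynomial

namespace Rz

/-- The functional attached to a point. -/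
noncomputable def pt {m : ℕ} (p : Fin m → ℂ) : Module.Dual ℂ (Fin m → ℂ) :=
  ∑ i, p i • (LinearMap.proj i : (Fin m → ℂ) →ₗ[ℂ] ℂ)

lemma pt_apply {m : ℕ} (p v : Fin m → ℂ) : pt p v = ∑ i, p i * v i := by
  rw [pt, _root_.LinearMap.sum_apply]
  rfl

lemma pt_single {m : ℕ} (p : Fin m → ℂ) (k : Fin m) : pt p (Pi.single k 1) = p k := by
  rw [pt_apply, Finset.sum_eq_single k]
  · rw [Pi.single_eq_same, mul_one]
  · intro i _ hi
    rw [Pi.single_eq_of_ne hi, mul_zero]
  · intro h
    exact absurd (Finset.mem_univ k) h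

lemma pt_surj {m : ℕ} (φ : Module.Dual ℂ (Fin m → ℂ)) : pt (fun i => φ (Pi.single i 1)) = φ := by
  apply LinearMap.pi_ext'
  intro i
  apply LinearMap.ext_ring
  rw [LinearMap.comp_apply, LinearMap.comp_apply, LinearMap.single_apply, pt_single]

lemma pt_toLin {m : ℕ} (p : Fin m → ℂ) (g : Matrix (Fin m) (Fin m) ℂ) :
    pt p ∘ₗ Matrix.toLin' g = pt (Matrix.vecMul p g) := by
  apply LinearMap.ext
  intro v
  rw [LinearMap.comp_apply, Matrix.toLin'_apply, pt_apply, pt_apply]
  exact Matrix.dotProduct_mulVec p g v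

lemma monomial_elt {m a : ℕ} (d : Fin m →₀ ℕ) (hd : ∑ k, d k = a) :
    ∃ e : Sym[ℂ]^a (Fin m → ℂ), ∀ p : Fin m → ℂ, evalPow a (pt p) e = ∏ k, p k ^ d k := by
  classical
  have hcard : Fintype.card (Σ k : Fin m, Fin (d k)) = a := by
    rw [Fintype.card_sigma]
    simp only [Fintype.card_fin]
    exact hd
  let s : (Σ k : Fin m, Fin (d k)) ≃ Fin a := Fintype.equivFinOfCardEq hcard
  refine ⟨SymmetricPower.tprod ℂ (fun i => Pi.single (s.symm i).1 1), fun p => ?_⟩
  rw [evalPow_tprod]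
  have h1 : ∀ i : Fin a, pt p (Pi.single (s.symm i).1 1) = p (s.symm i).1 := fun i =>
    pt_single p _
  rw [Finset.prod_congr rfl (fun i _ => h1 i),
    Equiv.prod_comp s.symm (fun t : (Σ k : Fin m, Fin (d k)) => p t.1), Fintype.prod_sigma]
  apply Finset.prod_congr rfl
  intro k _
  change ∏ _y : Fin (d k), p k = p k ^ d k
  rw [Finset.prod_const, Finset.card_univ, Fintype.card_fin]

lemma poly_elt {m a : ℕ} (q : MvPolynomial (Fin m) ℂ) (hq : q.IsHomogeneous a) :
    ∃ e : Sym[ℂ]^a (Fin m → ℂ), ∀ p : Fin m → ℂ, evalPow a (pt p) e = eval p q := by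
  classical
  have h1 : ∀ d : Fin m →₀ ℕ, ∃ e : Sym[ℂ]^a (Fin m → ℂ), coeff d q ≠ 0 →
      ∀ p : Fin m → ℂ, evalPow a (pt p) e = ∏ k, p k ^ d k := by
    intro d
    by_cases h : coeff d q = 0
    · exact ⟨0, fun h' => absurd h h'⟩
    · have h2 : ∑ k, d k = a := by
        have h3 := hq h
        rw [Finsupp.weight_apply, Finsupp.sum_fintype _ _ (fun i => by simp)] at h3
        simpa using h3
      obtain ⟨e, he⟩ := monomial_elt d h2
      exact ⟨e, fun _ => he⟩
  choose E hE using h1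
  refine ⟨∑ d ∈ q.support, coeff d q • E d, fun p => ?_⟩
  rw [map_sum, MvPolynomial.eval_eq']
  apply Finset.sum_congr rfl
  intro d hd
  rw [map_smul, hE d (MvPolynomial.mem_support_iff.1 hd) p, smul_eq_mul]

lemma realize_elt {B m a : ℕ} {G : (Fin B → Fin m → ℂ) → ℂ} (hG : G ∈ MP B m a) :
    ∃ x : Sym[ℂ]^B (Sym[ℂ]^a (Fin m → ℂ)), ∀ p : Fin B → Fin m → ℂ,
      symEval (fun j => evalPow a (pt (p j))) x =
        ∑ σ : Equiv.Perm (Fin B), G (fun j => p (σ j)) := by
  classical
  rw [MP] at hG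
  induction hG using Submodule.span_induction with
  | mem G hG =>
    obtain ⟨q, hq, rfl⟩ := hG
    choose e he using fun j => poly_elt (q j) (hq j)
    refine ⟨SymmetricPower.tprod ℂ e, fun p => ?_⟩
    rw [symEval_tprod, ← Equiv.sum_comp (Equiv.inv (Equiv.Perm (Fin B)))]
    apply Finset.sum_congr rfl
    intro σ _
    rw [← Equiv.prod_comp σ (fun j => evalPow a (pt (p j))
      (e ((Equiv.inv (Equiv.Perm (Fin B)) σ) j)))]
    apply Finset.prod_congr rfl
    intro j _
    have h1 : (Equiv.inv (Equiv.Perm (Fin B)) σ) (σ j) = j := by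
      change σ.symm (σ j) = j
      exact σ.symm_apply_apply j
    rw [h1, he]
  | zero =>
    refine ⟨0, fun p => ?_⟩
    rw [map_zero]
    exact (Finset.sum_eq_zero (fun σ _ => rfl)).symm
  | add G G' _ _ h h' =>
    obtain ⟨x, hx⟩ := h
    obtain ⟨x', hx'⟩ := h'
    refine ⟨x + x', fun p => ?_⟩
    rw [map_add, hx, hx', ← Finset.sum_add_distrib]
    rfl
  | smul c G _ h =>
    obtain ⟨x, hx⟩ := h
    refine ⟨c • x, fun p => ?_⟩
    rw [map_smul, hx, smul_eq_mul, Finset.mul_sum]
    rfl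

lemma evalPow_comp {m a : ℕ} (ξ : Module.Dual ℂ (Fin m → ℂ))
    (g : (Fin m → ℂ) →ₗ[ℂ] (Fin m → ℂ)) : evalPow a ξ ∘ₗ symMap a g = evalPow a (ξ ∘ₗ g) := by
  apply sym_hom_ext
  intro v
  rw [LinearMap.comp_apply, symMap_tprod, evalPow_tprod, evalPow_tprod]
  rfl

/-- Evaluations at points separate the elements of `Sym^a ℂ^m`. -/
lemma evalPow_ext {m a : ℕ} (y : Sym[ℂ]^a (Fin m → ℂ))
    (h : ∀ p : Fin m → ℂ, evalPow a (pt p) y = 0) : y = 0 := by
  classical
  have hc : (Fintype.card (Equiv.Perm (Fin a)) : ℂ) ≠ 0 := by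
    exact_mod_cast Fintype.card_ne_zero
  have hdiag : ∀ φ : Module.Dual ℂ (Fin m → ℂ), symEvalM y (fun _ => φ) = 0 := by
    intro φ
    have e : symEval (fun _ => φ) =
        (Fintype.card (Equiv.Perm (Fin a)) : ℂ) • evalPow a φ := by
      apply sym_hom_ext
      intro v
      rw [symEval_const_tprod, LinearMap.smul_apply, evalPow_tprod, smul_eq_mul]
    have h1 := h (fun i => φ (Pi.single i 1))
    rw [pt_surj] at h1
    rw [symEvalM_apply, e, LinearMap.smul_apply, h1, smul_zero]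
  apply symEval_separates Set.univ Submodule.span_univ
  intro lam _
  have h1 := polar (symEvalM y) ⊤ (fun φ _ => hdiag φ) lam (fun _ => trivial)
  have h2 : ∀ π : Equiv.Perm (Fin a), symEvalM y (fun p => lam (π p)) = symEvalM y lam := by
    intro π
    have e : symEval (fun p => lam (π p)) = symEval lam (M := Fin m → ℂ) := by
      apply sym_hom_ext
      intro v
      rw [symEval_tprod, symEval_tprod, ← Equiv.sum_comp (Equiv.mulRight π)]
      apply Finset.sum_congr rfl
      intro σ _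
      rw [← Equiv.prod_comp π (fun i => lam i (v (σ i)))]
      rfl
    rw [symEvalM_apply, symEvalM_apply, e]
  rw [Finset.sum_congr rfl (fun π _ => h2 π), Finset.sum_const, nsmul_eq_mul,
    Finset.card_univ] at h1
  exact (mul_eq_zero.1 h1).resolve_left hc

lemma span_evalPow (m a : ℕ) : Submodule.span ℂ (Set.range
    (fun p : Fin m → ℂ => evalPow a (pt p))) =
    (⊤ : Submodule ℂ (Module.Dual ℂ (Sym[ℂ]^a (Fin m → ℂ)))) := by
  set W : Submodule ℂ (Module.Dual ℂ (Sym[ℂ]^a (Fin m → ℂ))) := Submodule.span ℂ (Set.range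
    (fun p : Fin m → ℂ => evalPow a (pt p))) with hW
  have h1 : W.dualCoannihilator = ⊥ := by
    rw [eq_bot_iff]
    intro y hy
    rw [Submodule.mem_dualCoannihilator] at hy
    rw [Submodule.mem_bot]
    apply evalPow_ext
    intro p
    exact hy _ (Submodule.subset_span ⟨p, rfl⟩)
  have h2 := Subspace.dualCoannihilator_dualAnnihilator_eq (W := W)
  rw [h1] at h2
  rw [← h2]
  exact Submodule.dualAnnihilator_bot

/-- Evaluations at tuples of points separate the elements of `Sym^B(Sym^a ℂ^m)`. -/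
lemma points_ext {B m a : ℕ} (x : Sym[ℂ]^B (Sym[ℂ]^a (Fin m → ℂ)))
    (h : ∀ p : Fin B → Fin m → ℂ, symEval (fun j => evalPow a (pt (p j))) x = 0) : x = 0 := by
  apply symEval_separates _ (span_evalPow m a)
  intro lam hlam
  choose p hp using hlam
  have h1 : lam = fun j => evalPow a (pt (p j)) := by
    funext j
    exact (hp j).symm
  rw [h1]
  exact h p

end Rz

theorem realize {B a m : ℕ} {lam : Fin m → ℕ} (G : (Fin B → Fin m → ℂ) → ℂ) (hG : G ∈ MP B m a)
    (hsy : ∀ (σ : Equiv.Perm (Fin B)) p, G (fun j => p (σ j)) = G p)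
    (hw : ∀ g : Matrix (Fin m) (Fin m) ℂ, IsBorel g → ∀ p,
      G (fun j => Matrix.vecMul (p j) g) = (∏ i, g i i ^ lam i) * G p)
    (hne : G ≠ 0) : Pos B a m lam := by
  classical
  obtain ⟨x, hx⟩ := Rz.realize_elt hG
  have hc : (Fintype.card (Equiv.Perm (Fin B)) : ℂ) ≠ 0 := by
    exact_mod_cast Fintype.card_ne_zero
  have hx' : ∀ p : Fin B → Fin m → ℂ, symEval (fun j => evalPow a (Rz.pt (p j))) x =
      (Fintype.card (Equiv.Perm (Fin B)) : ℂ) * G p := by
    intro p
    rw [hx, Finset.sum_congr rfl (fun σ _ => hsy σ p), Finset.sum_const, nsmul_eq_mul,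
      Finset.card_univ]
  refine ⟨x, ?_, ?_⟩
  · intro g hg
    have h1 : symMap B (symMap a (Matrix.toLin' g)) x = (∏ i, g i i ^ lam i) • x := by
      rw [← sub_eq_zero]
      apply Rz.points_ext
      intro p
      rw [map_sub, map_smul, symEval_symMap]
      have h2 : (fun j => evalPow a (Rz.pt (p j)) ∘ₗ symMap a (Matrix.toLin' g)) =
          fun j => evalPow a (Rz.pt (Matrix.vecMul (p j) g)) := by
        funext j
        rw [Rz.evalPow_comp, Rz.pt_toLin]
      rw [h2, hx', hx', hw g hg p, smul_eq_mul]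
      ring
    exact h1
  · intro h0
    apply hne
    funext p
    have h1 := hx' p
    have h2 : (x : Sym[ℂ]^B (Sym[ℂ]^a (Fin m → ℂ))) = 0 := h0
    rw [h2, map_zero] at h1
    exact (mul_eq_zero.1 h1.symm).resolve_left hc

end Vale.Agent.P181.FR
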